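import Crest.Agent.R163.DE.Cert6

/-!
# R163/DE/Cert8: a run of the engine (about 15 s, 3 GB)
-/

set_option autoImplicit false

namespace Crest.Agent.R163.DE

theorem cert8 : chk cA 469 ps8 67 48289 10000 4 25 = true := by decide +kernel

end Crest.Agent.R163.DE
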