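import Crest.Agent.R163.DE.Sound
import Crest.Agent.R163.DE.Cert8
import Crest.Agent.R163.DE.Cert9

/-!
# R163/DE/Main: rigorous density evolution (conclusions)
-/

set_option autoImplicit false

namespace Crest.Agent.R163

open DE

theorem de_pois {d t : ℝ} (hd : 0 < d) (h : Adm 3 (-t)) (h1 : 9 / 20 ≤ t) (hdt : d * t ^ 2 = 1) :
    ∃ n, zseq (Off.pois d hd) t h n ≤ 4 / 25 := by
  have h2 : 1024 * t ≤ (512 : ℕ) := by
    have := h.2
    push_cast at this ⊢
    linarith
  rcases le_total ((508 : ℕ) : ℝ) (1024 * t) with h3 | h2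
  · exact pois_int cA_ok cert0 (by decide +kernel) hd h hdt h3 h2
  rcases le_total ((503 : ℕ) : ℝ) (1024 * t) with h3 | h2
  · exact pois_int cA_ok cert1 (by decide +kernel) hd h hdt h3 h2
  rcases le_total ((498 : ℕ) : ℝ) (1024 * t) with h3 | h2
  · exact pois_int cA_ok cert2 (by decide +kernel) hd h hdt h3 h2
  rcases le_total ((493 : ℕ) : ℝ) (1024 * t) with h3 | h2
  · exact pois_int cA_ok cert3 (by decide +kernel) hd h hdt h3 h2
  rcases le_total ((487 : ℕ) : ℝ) (1024 * t) with h3 | h2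
  · exact pois_int cA_ok cert4 (by decide +kernel) hd h hdt h3 h2
  rcases le_total ((481 : ℕ) : ℝ) (1024 * t) with h3 | h2
  · exact pois_int cA_ok cert5 (by decide +kernel) hd h hdt h3 h2
  rcases le_total ((475 : ℕ) : ℝ) (1024 * t) with h3 | h2
  · exact pois_int cA_ok cert6 (by decide +kernel) hd h hdt h3 h2
  rcases le_total ((469 : ℕ) : ℝ) (1024 * t) with h3 | h2
  · exact pois_int cA_ok cert7 (by decide +kernel) hd h hdt h3 h2
  rcases le_total ((463 : ℕ) : ℝ) (1024 * t) with h3 | h2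
  · exact pois_int cA_ok cert8 (by decide +kernel) hd h hdt h3 h2
  exact pois_int cA_ok cert9 (ta := 460) (by decide +kernel) hd h hdt (by push_cast; linarith) h2

theorem de_reg4 (h : Adm 3 (-(1 / 2))) : ∃ n, zseq (Off.reg 4) (1 / 2) h n ≤ 1 / 4 := by
  have e : (1 / 2 : ℝ) = (512 : ℕ) / 1024 := by norm_num
  revert h
  rw [e]
  exact fun h => ⟨_, (sound cB_ok le_rfl h hps_reg4 (by simp [Off.reg]) one_pos (by norm_num)
    certR).trans (by norm_num)⟩

end Crest.Agent.R163
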