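import Mathlib

/-!
# R163/DE/Defs: the kernel engine of the density evolution (definitions)

Atoms are integer triples (scale `128`) stored in a tree; atom `0` is the zero vector (a junk lane), atom `1` is
`(128, 0, 0)`, the last atom is `(128, 128, 128)`.  The channel parameter is `t = tn / 1024`.  Packed numbers have
lanes of 64 bits; the value of a lane of a state is given by its bits `27, …, 54` (scale `2 ^ 29 / 9`).
-/

set_option autoImplicit false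

namespace Crest.Agent.R163.DE

/-- atoms; `s` is the bit length of the left part -/
inductive Tr where
  | lf (a b c : ℕ)
  | nd (s : ℕ) (l r : Tr)

/-- the grid -/
structure Cf where
  /-- number of atoms -/
  n : ℕ
  /-- number of grid points -/
  M : ℕ
  /-- cell of `q ≤ 128` -/
  tI : ℕ
  /-- grid points -/
  tX : ℕ
  /-- bit position of the atom `(i, j)` at `32 i + j` -/
  tP : ℕ
  T : Tr

noncomputable section

def force {α : Type} (x : ℕ) (k : ℕ → α) : α := Nat.rec (k 0) (fun n _ => k n.succ) x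

/-- table lookup, lanes of 16 bits -/
def look (tab i : ℕ) : ℕ := Nat.land (Nat.shiftRight tab (Nat.mul 16 i)) 65535

def cell (c : Cf) (L Z : ℕ) : ℕ := look c.tI (Nat.div (Nat.mul 128 L) Z)

def frac (c : Cf) (L Z : ℕ) : ℕ :=
  Nat.div (Nat.sub (Nat.mul 128 L) (Nat.mul (look c.tX (cell c L Z)) Z))
    (Nat.sub (look c.tX (Nat.succ (cell c L Z))) (look c.tX (cell c L Z)))

def put (c : Cf) (x k : ℕ) : ℕ := Nat.shiftLeft x (look c.tP k)

def spl3 (c : Cf) (Z A B k : ℕ) : ℕ :=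
  Bool.rec
    (Nat.add (put c (Nat.sub Z B) k) (Nat.add (put c (Nat.sub B A) (Nat.add k 1)) (put c A (Nat.add k 33))))
    (Nat.add (put c (Nat.sub Z A) k) (Nat.add (put c (Nat.sub A B) (Nat.add k 32)) (put c B (Nat.add k 33))))
    (Nat.ble B A)

/-- split `(Z, L, L')`, `Z` the largest coordinate -/
def spl (c : Cf) (Z L L' : ℕ) : ℕ :=
  force (Nat.add (Nat.mul 32 (cell c L Z)) (cell c L' Z)) fun k => spl3 c Z (frac c L Z) (frac c L' Z) k

def srt (c : Cf) (x y z : ℕ) : ℕ :=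
  Bool.rec (Bool.rec (spl c z x y) (spl c y x z) (Nat.ble z y))
    (Bool.rec (spl c z x y) (spl c x y z) (Nat.ble z x)) (Nat.ble y x)

def row (c : Cf) (b0 b1 b2 a0 a1 a2 : ℕ) : ℕ :=
  Nat.add (Nat.add (Nat.mul a1 b1) (Nat.mul a2 b2))
   (Nat.add (Nat.add (srt c (Nat.mul a0 b0) (Nat.mul a1 b1) (Nat.mul a2 b2))
      (srt c (Nat.mul a0 b0) (Nat.mul a1 b2) (Nat.mul a2 b1)))
    (Nat.add (Nat.add (srt c (Nat.mul a0 b1) (Nat.mul a1 b0) (Nat.mul a2 b2))
      (srt c (Nat.mul a0 b1) (Nat.mul a1 b2) (Nat.mul a2 b0)))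
     (Nat.add (srt c (Nat.mul a0 b2) (Nat.mul a1 b0) (Nat.mul a2 b1))
      (srt c (Nat.mul a0 b2) (Nat.mul a1 b1) (Nat.mul a2 b0)))))

def bld (f : ℕ → ℕ → ℕ → ℕ) (T : Tr) : ℕ :=
  Tr.rec f (fun s _ _ il ir => Nat.add il (Nat.shiftLeft ir s)) T

def toL (f : ℕ → ℕ → ℕ → ℕ) (T : Tr) : List ℕ → List ℕ :=
  Tr.rec (fun a b c acc => f a b c :: acc) (fun _ _ _ il ir acc => il (ir acc)) T

/-- numerator of the channel output (denominator `3 * 1024 * 128`) -/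
def bn (tn s a : ℕ) : ℕ := Nat.sub (Nat.mul (Nat.add 1024 tn) s) (Nat.mul (Nat.mul 3 tn) a)

def sm (a0 a1 a2 : ℕ) : ℕ := Nat.add a0 (Nat.add a1 a2)

def vx (c : Cf) (tn a0 a1 a2 : ℕ) : ℕ :=
  force (bn tn (sm a0 a1 a2) a0) fun b0 => force (bn tn (sm a0 a1 a2) a1) fun b1 =>
    force (bn tn (sm a0 a1 a2) a2) fun b2 => bld (row c b0 b1 b2) c.T

def dotp (L : List ℕ) : ℕ → ℕ :=
  List.rec (fun _ => 0)
    (fun r _ ih x => Nat.add (Nat.mul (Nat.land x 268435455) r) (ih (Nat.shiftRight x 64))) L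

def dot (L : List ℕ) (x : ℕ) : ℕ := dotp L (Nat.shiftRight x 27)

def mask (n : ℕ) : ℕ := Nat.rec 0 (fun _ ih => Nat.add 268435455 (Nat.shiftLeft ih 64)) n

def cut (m : ℕ) (T : Tr) : ℕ → List ℕ → List ℕ :=
  Tr.rec (fun _ _ _ x acc => Nat.land (Nat.shiftRight x 27) m :: acc)
    (fun s _ _ il ir x acc => il (Nat.land x (Nat.pred (Nat.pow 2 s))) (ir (Nat.shiftRight x s) acc)) T

def hor (rows : List ℕ) (ps : List ℕ) : ℕ :=
  List.rec 0 (fun p _ ih => Nat.add p (dot rows ih)) ps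

def compl (sums : List ℕ) (W : ℕ) : ℕ :=
  Nat.add W (Nat.shiftLeft (Nat.div (Nat.sub 22906492245 (dot sums W)) 128) 91)

def step (c : Cf) (V sums ps : List ℕ) (m W : ℕ) : ℕ := compl sums (hor (cut m c.T (dot V W) []) ps)

def run (c : Cf) (V sums ps : List ℕ) (m k : ℕ) : ℕ → ℕ :=
  Nat.rec (fun W => W) (fun _ ih W => force (step c V sums ps m W) ih) k

def shl (c : Cf) (ps : List ℕ) : List ℕ :=
  List.rec [] (fun p _ ih => Nat.shiftLeft p (Nat.mul 64 (Nat.pred c.n)) :: ih) ps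

def runC (c : Cf) (tn : ℕ) (ps : List ℕ) (k W : ℕ) : ℕ :=
  run c (toL (vx c tn) c.T []) (toL sm c.T []) (shl c ps) (mask c.n) k W

/-- a lower bound for the cube root -/
def cbr (N k : ℕ) : ℕ → ℕ :=
  Nat.rec (fun r => r) (fun j ih r => force (Nat.add r (Nat.pow 2 j)) fun r' =>
    force (Bool.rec r r' (Nat.ble (Nat.pow r' 3) N)) ih) k

def gx (tn a0 a1 a2 : ℕ) : ℕ :=
  cbr (Nat.shiftLeft (Nat.mul (bn tn (sm a0 a1 a2) a0)
    (Nat.mul (bn tn (sm a0 a1 a2) a1) (bn tn (sm a0 a1 a2) a2))) 30) 32 0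

def W0 : ℕ := Nat.shiftLeft 178956970 91

/-- after `k` steps `dn / dd * (1 - ∑ w G) ≤ zn / zd` -/
def chk (c : Cf) (tn : ℕ) (ps : List ℕ) (k dn dd zn zd : ℕ) : Bool :=
  Nat.ble (dn * zd * 2 ^ 56) (zn * dd * 2 ^ 56 + dn * zd * 3 * dot (toL (gx tn) c.T []) (runC c tn ps k W0))

end

def Tr.size : Tr → ℕ
  | .lf _ _ _ => 1
  | .nd _ l r => l.size + r.size

/-- the atom number `g` -/
def Tr.atm : Tr → ℕ → ℕ × ℕ × ℕ
  | .lf a b c, _ => (a, b, c)
  | .nd _ l r, g => if g < l.size then l.atm g else r.atm (g - l.size)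

def Tr.wf (R : ℕ) : Tr → Bool
  | .lf _ _ _ => true
  | .nd s l r => s == R * l.size && l.wf R && r.wf R

/-- the decidable conditions on the grid -/
def Cf.Ok (c : Cf) : Prop :=
  c.T.wf (64 * c.n) = true ∧ c.T.size = c.n ∧ 1 < c.n ∧ c.n ≤ 113 ∧
  c.T.atm 0 = (0, 0, 0) ∧ c.T.atm 1 = (128, 0, 0) ∧ c.T.atm (c.n - 1) = (128, 128, 128) ∧
  (∀ g < c.n, (c.T.atm g).1 ≤ 128 ∧ (c.T.atm g).2.1 ≤ 128 ∧ (c.T.atm g).2.2 ≤ 128) ∧
  (∀ q < 129, look c.tI q + 1 < c.M ∧ look c.tX (look c.tI q) ≤ q ∧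
    look c.tX (look c.tI q) < look c.tX (look c.tI q + 1) ∧ min (q + 1) 128 ≤ look c.tX (look c.tI q + 1)) ∧
  ∀ i < c.M, ∀ j < c.M, look c.tP (32 * i + j) = 64 * (look c.tP (32 * i + j) / 64) ∧
    look c.tP (32 * i + j) / 64 < c.n ∧
    (c.T.atm (look c.tP (32 * i + j) / 64) = (128, look c.tX i, look c.tX j) ∨
      c.T.atm (look c.tP (32 * i + j) / 64) = (128, look c.tX j, look c.tX i))

noncomputable instance (c : Cf) : Decidable c.Ok := by unfold Cf.Ok; infer_instance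

end Crest.Agent.R163.DE
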