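import Crest.Agent.R163.DE.Defs

/-!
# R163/DE/Pack: packed numbers
-/

set_option autoImplicit false

namespace Crest.Agent.R163.DE

open Finset

@[simp] theorem force_eq {α : Type} (x : ℕ) (k : ℕ → α) : force x k = k x := by
  cases x <;> rfl

def pk (W n : ℕ) (f : ℕ → ℕ) : ℕ := ∑ i ∈ range n, f i * 2 ^ (W * i)

def tab (n : ℕ) (f : ℕ → ℕ) : List ℕ := (List.range n).map f

/-- the value of the lane `i` -/
def ln (x i : ℕ) : ℕ := x / 2 ^ (64 * i + 27) % 2 ^ 28

theorem ln_lt (x i : ℕ) : ln x i < 2 ^ 28 := Nat.mod_lt _ (by norm_num)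

theorem pk_congr {W n : ℕ} {f g : ℕ → ℕ} (h : ∀ i < n, f i = g i) : pk W n f = pk W n g :=
  sum_congr rfl fun i hi => by rw [h i (mem_range.1 hi)]

theorem pk_split (W a b : ℕ) (f : ℕ → ℕ) :
    pk W (a + b) f = pk W a f + 2 ^ (W * a) * pk W b fun i => f (a + i) := by
  simp only [pk, sum_range_add, mul_sum, mul_add, pow_add]
  congr 1
  exact sum_congr rfl fun i _ => by ring

theorem pk_one (W : ℕ) (f : ℕ → ℕ) : pk W 1 f = f 0 := by simp [pk]

theorem pk_succ (W n : ℕ) (f : ℕ → ℕ) :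
    pk W (n + 1) f = f 0 + 2 ^ W * pk W n fun i => f (1 + i) := by
  rw [add_comm n, pk_split, pk_one, mul_one]

theorem pk_lt {W n : ℕ} {f : ℕ → ℕ} (h : ∀ i < n, f i < 2 ^ W) : pk W n f < 2 ^ (W * n) := by
  induction n with
  | zero => simp [pk]
  | succ n ih =>
    have h1 := ih fun i hi => h i (by omega)
    have h2 := Nat.mul_le_mul_left (2 ^ (W * n)) (Nat.succ_le_of_lt (h n (by omega)))
    rw [pk_split, pk_one, mul_add_one, pow_add, add_zero]
    rw [Nat.mul_succ] at h2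
    omega

theorem pk_lane {W n i : ℕ} {f : ℕ → ℕ} (h : ∀ i < n, f i < 2 ^ W) (hi : i < n) :
    pk W n f / 2 ^ (W * i) % 2 ^ W = f i := by
  obtain ⟨k, rfl⟩ : ∃ k, n = i + (k + 1) := ⟨n - i - 1, by omega⟩
  rw [pk_split, Nat.add_mul_div_left _ _ (by positivity),
    Nat.div_eq_of_lt (pk_lt fun j hj => h j (by omega)), zero_add, pk_succ, Nat.add_mul_mod_self_left,
    add_zero, Nat.mod_eq_of_lt (h i hi)]

theorem ln_pk {n i : ℕ} {f : ℕ → ℕ} (h : ∀ i < n, f i < 2 ^ 64) (hi : i < n) :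
    ln (pk 64 n f) i = f i / 2 ^ 27 % 2 ^ 28 := by
  rw [ln, pow_add, ← Nat.div_div_eq_div_mul, ← pk_lane h hi]
  omega

theorem pk_add (W n : ℕ) (f g : ℕ → ℕ) : pk W n f + pk W n g = pk W n fun i => f i + g i := by
  simp only [pk, add_mul, sum_add_distrib]

theorem pk_sum (W n m : ℕ) (a : ℕ → ℕ) (f : ℕ → ℕ → ℕ) :
    ∑ x ∈ range m, a x * pk W n (f x) = pk W n fun i => ∑ x ∈ range m, a x * f x i := by
  simp only [pk, mul_sum, sum_mul, mul_assoc]
  exact sum_comm

theorem pk_single {W n y : ℕ} (hy : y < n) (x : ℕ) :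
    x * 2 ^ (W * y) = pk W n fun i => if i = y then x else 0 := by
  simp [pk, hy]

theorem tab_succ (n : ℕ) (f : ℕ → ℕ) : tab (n + 1) f = f 0 :: tab n fun i => f (i + 1) := by
  simp [tab, List.range_succ_eq_map, Function.comp_def]

theorem tab_add (a b : ℕ) (f : ℕ → ℕ) : tab (a + b) f = tab a f ++ tab b fun i => f (a + i) := by
  simp [tab, List.range_add, Function.comp_def]

theorem tab_congr {n : ℕ} {f g : ℕ → ℕ} (h : ∀ i < n, f i = g i) : tab n f = tab n g :=
  List.map_congr_left fun i hi => h i (List.mem_range.1 hi)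

theorem dotp_tab (n : ℕ) (F : ℕ → ℕ) (y : ℕ) :
    dotp (tab n F) y = ∑ i ∈ range n, y / 2 ^ (64 * i) % 2 ^ 28 * F i := by
  induction n generalizing F y with
  | zero => rfl
  | succ n ih =>
    rw [tab_succ, sum_range_succ']
    change (y &&& (2 ^ 28 - 1)) * F 0 + dotp _ (y >>> 64) = _
    rw [ih, Nat.and_two_pow_sub_one_eq_mod, add_comm, Nat.shiftRight_eq_div_pow]
    simp only [Nat.div_div_eq_div_mul, ← pow_add, mul_add_one, add_comm 64, mul_zero, pow_zero,
      Nat.div_one]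

theorem dot_tab (n : ℕ) (F : ℕ → ℕ) (x : ℕ) : dot (tab n F) x = ∑ i ∈ range n, ln x i * F i := by
  change dotp _ (x >>> 27) = _
  simp only [dotp_tab, Nat.shiftRight_eq_div_pow, Nat.div_div_eq_div_mul, ← pow_add, add_comm 27, ln]

theorem land_mask (n y : ℕ) : y &&& mask n = pk 64 n fun i => y / 2 ^ (64 * i) % 2 ^ 28 := by
  induction n generalizing y with
  | zero => exact Nat.and_zero y
  | succ n ih =>
    have e : mask (n + 1) = 268435455 + mask n * 2 ^ 64 := by
      rw [← Nat.shiftLeft_eq]; rfl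
    have e1 : mask (n + 1) % 2 ^ 64 = 2 ^ 28 - 1 := by omega
    have e2 : mask (n + 1) / 2 ^ 64 = mask n := by omega
    rw [← Nat.mod_add_div (y &&& mask (n + 1)) (2 ^ 64), Nat.and_mod_two_pow, Nat.and_div_two_pow, e1,
      e2, ih, pk_succ, Nat.and_two_pow_sub_one_eq_mod]
    have e3 : y % 2 ^ 64 % 2 ^ 28 = y % 2 ^ 28 := by omega
    simp only [Nat.div_div_eq_div_mul, ← pow_add, mul_add, mul_one, mul_zero, pow_zero, Nat.div_one, e3]

theorem rs_eq (n x : ℕ) : Nat.land (Nat.shiftRight x 27) (mask n) = pk 64 n (ln x) := by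
  change (x >>> 27) &&& mask n = _
  simp only [land_mask, Nat.shiftRight_eq_div_pow, Nat.div_div_eq_div_mul, ← pow_add, add_comm 27]
  rfl

/-- apply `f` to the atom number `g` -/
def Tr.ap (T : Tr) (f : ℕ → ℕ → ℕ → ℕ) (g : ℕ) : ℕ := f (T.atm g).1 (T.atm g).2.1 (T.atm g).2.2

theorem Tr.ap_left (s : ℕ) (l r : Tr) (f : ℕ → ℕ → ℕ → ℕ) {g : ℕ} (h : g < l.size) :
    (Tr.nd s l r).ap f g = l.ap f g := by
  simp [Tr.ap, Tr.atm, h]

theorem Tr.ap_right (s : ℕ) (l r : Tr) (f : ℕ → ℕ → ℕ → ℕ) (g : ℕ) :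
    (Tr.nd s l r).ap f (l.size + g) = r.ap f g := by
  simp [Tr.ap, Tr.atm]

theorem bld_eq {R : ℕ} (f : ℕ → ℕ → ℕ → ℕ) {T : Tr} (h : T.wf R = true) :
    bld f T = pk R T.size (T.ap f) := by
  induction T with
  | lf a b c => exact (pk_one R ((Tr.lf a b c).ap f)).symm
  | nd s l r il ir =>
    simp only [Tr.wf, Bool.and_eq_true, beq_iff_eq] at h
    change bld f l + bld f r <<< s = pk R (l.size + r.size) _
    rw [pk_split, il h.1.2, ir h.2, Nat.shiftLeft_eq, h.1.1, mul_comm (pk _ _ _),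
      pk_congr fun i hi => Tr.ap_left _ l r f hi]
    simp only [Tr.ap_right]

theorem toL_eq (f : ℕ → ℕ → ℕ → ℕ) (T : Tr) (acc : List ℕ) :
    toL f T acc = tab T.size (T.ap f) ++ acc := by
  induction T generalizing acc with
  | lf a b c => rfl
  | nd s l r il ir =>
    change toL f l (toL f r acc) = tab (l.size + r.size) _ ++ acc
    rw [tab_add, il, ir, List.append_assoc, tab_congr fun i hi => Tr.ap_left _ l r f hi]
    simp only [Tr.ap_right]

theorem cut_eq {R : ℕ} (m : ℕ) {T : Tr} (h : T.wf R = true) {F : ℕ → ℕ}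
    (hF : ∀ g < T.size, F g < 2 ^ R) (acc : List ℕ) : cut m T (pk R T.size F) acc =
      tab T.size (fun g => Nat.land (Nat.shiftRight (F g) 27) m) ++ acc := by
  induction T generalizing acc F with
  | lf a b c =>
    change cut m _ (pk R 1 F) acc = _
    rw [pk_one]
    rfl
  | nd s l r il ir =>
    simp only [Tr.wf, Bool.and_eq_true, beq_iff_eq] at h
    have hs : (Tr.nd s l r).size = l.size + r.size := rfl
    rw [hs] at hF ⊢
    have h1 : pk R l.size F < 2 ^ (R * l.size) := pk_lt fun i hi => hF i (by omega)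
    change cut m l (pk R _ F &&& (2 ^ s - 1)) (cut m r (pk R _ F >>> s) acc) = _
    rw [Nat.and_two_pow_sub_one_eq_mod, Nat.shiftRight_eq_div_pow, h.1.1, pk_split,
      Nat.add_mul_mod_self_left, Nat.mod_eq_of_lt h1, Nat.add_mul_div_left _ _ (by positivity),
      Nat.div_eq_of_lt h1, zero_add, il h.1.2 fun i hi => hF i (by omega),
      ir h.2 fun i hi => hF _ (by omega), tab_add, List.append_assoc]

theorem cbr_le (N k r : ℕ) (h : r ^ 3 ≤ N) : cbr N k r ^ 3 ≤ N := by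
  induction k generalizing r with
  | zero => exact h
  | succ k ih =>
    change (force (r + 2 ^ k) fun r' => force (Bool.rec r r' (Nat.ble (r' ^ 3) N)) (cbr N k)) ^ 3 ≤ N
    rw [force_eq, force_eq]
    refine ih _ ?_
    cases e : Nat.ble ((r + 2 ^ k) ^ 3) N
    · exact h
    · exact Nat.le_of_ble_eq_true e

end Crest.Agent.R163.DE
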