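import Crest.Agent.R163.DE.Split

/-!
# R163/DE/Sound: soundness of the engine
-/

set_option autoImplicit false

namespace Crest.Agent.R163.DE

open Finset

/-- the weights of a state -/
noncomputable def wt (W g : ℕ) : ℝ := 9 * ln W g / 2 ^ 29

theorem wt_nonneg (W g : ℕ) : 0 ≤ wt W g := by unfold wt; positivity

/-- iterated transitions started from the last atom -/
noncomputable def Pk (n : ℕ) (A : ℕ → ℕ → ℝ) : ℕ → ℕ → ℝ
  | 0 => fun y => if y = n - 1 then 1 else 0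
  | k + 1 => fun y => ∑ g ∈ range n, Pk n A k g * A g y

theorem Pk_nonneg {n : ℕ} {A : ℕ → ℕ → ℝ} (hA : ∀ g y, 0 ≤ A g y) (k y : ℕ) : 0 ≤ Pk n A k y := by
  induction k generalizing y with
  | zero => simp only [Pk]; split_ifs <;> norm_num
  | succ k ih => exact sum_nonneg fun g _ => mul_nonneg (ih g) (hA g y)

/-- `9 * ps[k] / 2 ^ 56` is a lower bound for the probability of `k` children -/
def Hps (O : Off) (ps : List ℕ) : Prop :=
  (∀ p ∈ ps, p < 2 ^ 53) ∧ ∀ (ν : Exp 3) (n : ℕ) (v : ℕ → Vec 3) (P : ℕ → ℕ → ℝ), (∀ g < n, NN (v g)) →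
    (∀ k, Dom (ν.pow k) n v (P k)) → (∀ k g, 0 ≤ P k g) →
    Dom (Exp.step O ν) n v fun g => ∑ k ∈ range ps.length, (9 * ps.getD k 0 / 2 ^ 56 : ℝ) * P k g

theorem sum_le_mul {n B : ℕ} (hn : n ≤ 113) {a b : ℕ → ℕ} (ha : ∀ g, a g < 2 ^ 28)
    (hb : ∀ g < n, b g ≤ B) : ∑ g ∈ range n, a g * b g ≤ 113 * ((2 ^ 28 - 1) * B) := by
  refine (sum_le_card_nsmul _ _ ((2 ^ 28 - 1) * B) fun g hg => ?_).trans ?_
  · exact Nat.mul_le_mul (Nat.le_sub_one_of_lt (ha g)) (hb g (mem_range.1 hg))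
  · rw [card_range, smul_eq_mul]
    exact Nat.mul_le_mul_right _ hn

theorem ln_pk_le {n i : ℕ} {f : ℕ → ℕ} (h : ∀ i < n, f i < 2 ^ 64) (hi : i < n) :
    (ln (pk 64 n f) i : ℝ) * 2 ^ 27 ≤ f i := by
  have : ln (pk 64 n f) i * 2 ^ 27 ≤ f i := by rw [ln_pk h hi]; omega
  exact_mod_cast this

variable {c : Cf}

theorem hor_spec (h0 : 1 < c.n) (hn : c.n ≤ 113) {R : ℕ → ℕ → ℕ} (hR : ∀ g y, R g y < 2 ^ 28)
    (ps : List ℕ) (hps : ∀ p ∈ ps, p < 2 ^ 53) : ∃ f : ℕ → ℕ,
      hor (tab c.n fun g => pk 64 c.n (R g)) (shl c ps) = pk 64 c.n f ∧ (∀ y, f y < 2 ^ 63) ∧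
      ∀ y < c.n, (9 * f y / 2 ^ 56 : ℝ) ≤ ∑ k ∈ range ps.length,
        (9 * ps.getD k 0 / 2 ^ 56 : ℝ) * Pk c.n (fun g y => R g y / 2 ^ 27) k y := by
  induction ps with
  | nil => exact ⟨fun _ => 0, by simp [pk, hor, shl], fun _ => by norm_num, fun _ _ => by simp⟩
  | cons p ps ih =>
    obtain ⟨f, h1, h2, h3⟩ := ih fun q hq => hps q (List.mem_cons_of_mem _ hq)
    have hp := hps p List.mem_cons_self
    refine ⟨fun y => (if y = c.n - 1 then p else 0) + ∑ g ∈ range c.n, ln (pk 64 c.n f) g * R g y,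
      ?_, fun y => ?_, fun y hy => ?_⟩
    · change p <<< (64 * (c.n - 1)) + dot _ (hor _ (shl c ps)) = _
      rw [h1, dot_tab, pk_sum, Nat.shiftLeft_eq, pk_single (n := c.n) (by omega), pk_add]
    · have := sum_le_mul hn (ln_lt (pk 64 c.n f)) fun g _ => (hR g y).le
      beta_reduce
      split_ifs <;> omega
    · rw [List.length_cons, sum_range_succ']
      simp only [List.getD_cons_succ, List.getD_cons_zero, Pk, mul_sum, ← mul_assoc]
      rw [sum_comm]
      simp only [← sum_mul]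
      have a1 : ∑ g ∈ range c.n, (9 * (ln (pk 64 c.n f) g * R g y) / 2 ^ 56 : ℝ) ≤
          ∑ g ∈ range c.n, (∑ k ∈ range ps.length, (9 * ps.getD k 0 / 2 ^ 56 : ℝ) *
            Pk c.n (fun g y => R g y / 2 ^ 27) k g) * (R g y / 2 ^ 27) := by
        refine sum_le_sum fun g hg => le_trans ?_
          (mul_le_mul_of_nonneg_right (h3 g (mem_range.1 hg)) (by positivity))
        have a2 := ln_pk_le (fun i _ => (h2 i).trans (by norm_num)) (mem_range.1 hg)
        have a3 : (0 : ℝ) ≤ R g y := Nat.cast_nonneg _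
        nlinarith
      rw [← sum_div, ← mul_sum] at a1
      push_cast
      split_ifs <;> linarith

theorem v_one (h : c.Ok) : c.v 1 = ![1, 0, 0] := by
  rw [Cf.v, h.2.2.2.2.2.1]
  funext i
  fin_cases i <;> simp [vc]

theorem v_last (h : c.Ok) : c.v (c.n - 1) = 1 := by
  rw [Cf.v, h.2.2.2.2.2.2.1]
  funext i
  fin_cases i <;> simp [vc]

theorem wt_add {n : ℕ} (h0 : 1 < n) {f : ℕ → ℕ} (hf : ∀ y, f y < 2 ^ 63) {e : ℕ} (he : e < 2 ^ 28)
    {g : ℕ} (hg : g < n) :
    wt (pk 64 n f + e <<< 91) g ≤ wt (pk 64 n f) g + if g = 1 then (9 * e / 2 ^ 29 : ℝ) else 0 := by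
  have e1 : e <<< 91 = e * 2 ^ 27 * 2 ^ (64 * 1) := by rw [Nat.shiftLeft_eq]; ring
  have e2 : ln (pk 64 n f + e <<< 91) g ≤ ln (pk 64 n f) g + if g = 1 then e else 0 := by
    rw [e1, pk_single h0, pk_add, ln_pk (fun i _ => ?_) hg,
      ln_pk (fun i _ => (hf i).trans (by norm_num)) hg]
    · split_ifs <;> omega
    · have := hf i
      split_ifs <;> omega
  have e3 := (Nat.cast_le (α := ℝ)).2 e2
  unfold wt
  push_cast at e3
  split_ifs at e3 ⊢ <;> linarith

theorem compl_eq (sums : List ℕ) (W : ℕ) :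
    compl sums W = W + ((22906492245 - dot sums W) / 128) <<< 91 := rfl

theorem run_succ (V sums ps : List ℕ) (m k W : ℕ) :
    run c V sums ps m (k + 1) W = run c V sums ps m k (step c V sums ps m W) :=
  force_eq (step c V sums ps m W) (run c V sums ps m k)

theorem dom_compl (h : c.Ok) {μ : Exp 3} {f : ℕ → ℕ} (hf : ∀ y, f y < 2 ^ 63)
    (hD : Dom μ c.n c.v (wt (pk 64 c.n f))) :
    Dom μ c.n c.v (wt (compl (toL sm c.T []) (pk 64 c.n f))) := by
  rw [toL_eq, List.append_nil, h.2.1, compl_eq, dot_tab]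
  set D := ∑ i ∈ range c.n, ln (pk 64 c.n f) i * c.T.ap sm i with hDe
  have he : (22906492245 - D) / 128 < 2 ^ 28 := by omega
  have key := fun g (hg : g < c.n) => wt_add h.2.2.1 hf he hg
  rcases le_total D 22906492245 with h1 | h1
  · refine (hD.complete h.2.2.1 (v_one h)).mono (fun g _ => c.nn_v g) fun g hg => (key g hg).trans ?_
    have a1 : ∑ x ∈ range c.n, wt (pk 64 c.n f) x * ∑ i, c.v x i = 9 * D / 2 ^ 36 := by
      rw [hDe]
      push_cast
      rw [mul_sum, sum_div]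
      refine sum_congr rfl fun x _ => ?_
      have : ((c.T.ap sm x : ℕ) : ℝ) = (c.T.atm x).1 + ((c.T.atm x).2.1 + (c.T.atm x).2.2) := by
        rw [← Nat.cast_add, ← Nat.cast_add]; rfl
      simp [this, wt, Cf.v, vc, Fin.sum_univ_three]
      ring
    have a2 : (22906492245 - D) / 128 * 128 + D ≤ 22906492245 := by omega
    have a3 := (Nat.cast_le (α := ℝ)).2 a2
    rw [a1]
    generalize (22906492245 - D) / 128 = e at a3
    push_cast at a3
    split_ifs <;> linarith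
  · refine hD.mono (fun g _ => c.nn_v g) fun g hg => (key g hg).trans ?_
    rw [Nat.sub_eq_zero_of_le h1]
    simp

theorem dom_step (h : c.Ok) {tn : ℕ} (ht : tn ≤ 512) (hA : Adm 3 (-((tn : ℝ) / 1024))) {O : Off}
    {ps : List ℕ} (hps : Hps O ps) {μ : Exp 3} (hμ : μ.Sym) {W : ℕ} (hD : Dom μ c.n c.v (wt W)) :
    Dom (Exp.step O (Exp.chan _ hA μ)) c.n c.v
      (wt (step c (toL (vx c tn) c.T []) (toL sm c.T []) (shl c ps) (mask c.n) W)) := by
  obtain ⟨V, e, hB, hV⟩ := exists_V h ht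
  have hv := fun g (_ : g < c.n) => c.nn_v g
  have hT : ∀ g < c.n, ∀ y < c.n, ∑ x ∈ range c.n, ln W x * V x g y < 2 ^ 64 := fun g hg y _ =>
    (sum_le_mul h.2.2.2.1 (ln_lt W) fun x hx => hB x hx g hg y).trans_lt (by norm_num)
  set F : ℕ → ℕ := fun g => pk 64 c.n fun y => ∑ x ∈ range c.n, ln W x * V x g y with hF
  have e1 : cut (mask c.n) c.T (dot (toL (vx c tn) c.T []) W) [] =
      tab c.n fun g => pk 64 c.n (ln (F g)) := by
    rw [e, dot_tab, pk_sum]
    simp only [pk_sum]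
    have := cut_eq (mask c.n) h.1 (F := F) (fun g hg => pk_lt (hT g (h.2.1 ▸ hg))) []
    rw [h.2.1, List.append_nil] at this
    simp only [rs_eq] at this
    exact this
  obtain ⟨f, h1, h2, h3⟩ := hor_spec h.2.2.1 h.2.2.2.1 (fun g y => ln_lt (F g) y) ps hps.1
  rw [step, e1, h1]
  have hP := Pk_nonneg (n := c.n) (A := fun g y => ln (F g) y / 2 ^ 27) fun g y => by positivity
  refine dom_compl h h2 ((hps.2 _ _ _ _ hv (fun k => ?_) hP).mono hv fun y hy => le_trans ?_ (h3 y hy))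
  · induction k with
    | zero => exact dom_unit (by have := h.2.2.1; omega) (v_last h)
    | succ k ih =>
      refine (Dom.mul hμ ((hμ.chan hA).pow k) hA hv hD ih (fun g _ => wt_nonneg W g)
        (fun g _ => hP k g) hV).mono hv fun y hy => sum_le_sum fun g hg => ?_
      refine mul_le_mul_of_nonneg_left ?_ (hP k g)
      have a1 := ln_pk_le (hT g (mem_range.1 hg)) hy
      have a2 : ∑ x ∈ range c.n, wt W x * (V x g y / (9 * 2 ^ 25) : ℝ) =
          (∑ x ∈ range c.n, ln W x * V x g y : ℕ) / 2 ^ 54 := by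
        push_cast
        rw [sum_div]
        exact sum_congr rfl fun x _ => by unfold wt; ring
      rw [a2]
      linarith
  · have := ln_pk_le (fun i _ => (h2 i).trans (by norm_num)) hy
    unfold wt
    linarith

theorem dom_run (h : c.Ok) {tn : ℕ} (ht : tn ≤ 512) (hA : Adm 3 (-((tn : ℝ) / 1024))) {O : Off}
    {ps : List ℕ} (hps : Hps O ps) (k m : ℕ) {W : ℕ} (hD : Dom (Exp.bp O _ hA m) c.n c.v (wt W)) :
    Dom (Exp.bp O _ hA (m + k)) c.n c.v (wt (runC c tn ps k W)) := by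
  induction k generalizing m W with
  | zero => exact hD
  | succ k ih =>
    have := ih (m + 1) (dom_step h ht hA hps (Exp.sym_bp O hA m) hD)
    rw [add_assoc, add_comm 1] at this
    rw [runC, run_succ]
    exact this

theorem dom_W0 (h : c.Ok) : Dom Exp.perfect c.n c.v (wt W0) := by
  refine (dom_perfect h.2.2.1 (v_one h)).mono (fun g _ => c.nn_v g) fun g hg => ?_
  have := wt_add h.2.2.1 (f := fun _ => 0) (fun _ => by norm_num) (e := 178956970) (by norm_num) hg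
  have e : pk 64 c.n (fun _ => 0) = 0 := by simp [pk]
  have e' : wt 0 g = 0 := by simp [wt, ln]
  rw [e, e', zero_add, zero_add] at this
  refine this.trans ?_
  split_ifs <;> norm_num

theorem sound (h : c.Ok) {tn : ℕ} (ht : tn ≤ 512) (hA : Adm 3 (-((tn : ℝ) / 1024))) {O : Off}
    {ps : List ℕ} (hps : Hps O ps) {k dn dd zn zd : ℕ} (hd : O.d = dn / dd) (hdd : 0 < dd)
    (hzd : 0 < zd) (hk : chk c tn ps k dn dd zn zd = true) : zseq O (tn / 1024) hA k ≤ zn / zd := by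
  have h1 := dom_run h ht hA hps k 0 (dom_W0 h)
  rw [zero_add] at h1
  refine (Dom.zseq_le hA (G := fun g => c.T.ap (gx tn) g / (2 ^ 10 * 393216)) (fun g _ => c.nn_v g)
    (fun g _ => wt_nonneg _ g) h1 fun g _ => ?_).trans ?_
  · rw [Cf.v, Pm_vc ht]
    simp only [Tr.ap, gx]
    generalize bn tn _ (c.T.atm g).1 = b0
    generalize bn tn _ (c.T.atm g).2.1 = b1
    generalize bn tn _ (c.T.atm g).2.2 = b2
    have a1 := cbr_le (Nat.shiftLeft (Nat.mul b0 (Nat.mul b1 b2)) 30) 32 0 (Nat.zero_le _)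
    generalize cbr _ 32 0 = r at a1
    change r ^ 3 ≤ (b0 * (b1 * b2)) <<< 30 at a1
    rw [Nat.shiftLeft_eq] at a1
    have a2 := (Nat.cast_le (α := ℝ)).2 a1
    push_cast at a2
    simp only [vc, Pi.smul_apply, smul_eq_mul, Matrix.cons_val_zero, Matrix.cons_val_one,
      Matrix.cons_val_two, Matrix.head_cons, Matrix.tail_cons, div_pow]
    linarith
  · have a1 := Nat.le_of_ble_eq_true hk
    rw [toL_eq, List.append_nil, h.2.1, dot_tab] at a1
    have a2 : ∑ g ∈ range c.n, wt (runC c tn ps k W0) g * (c.T.ap (gx tn) g / (2 ^ 10 * 393216) : ℝ) =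
        3 * (∑ g ∈ range c.n, ln (runC c tn ps k W0) g * c.T.ap (gx tn) g : ℕ) / 2 ^ 56 := by
      push_cast
      rw [mul_sum, sum_div]
      exact sum_congr rfl fun x _ => by unfold wt; ring
    rw [a2, hd]
    generalize ∑ g ∈ range c.n, ln (runC c tn ps k W0) g * c.T.ap (gx tn) g = D at a1
    have a3 := (Nat.cast_le (α := ℝ)).2 a1
    push_cast at a3
    have b1 : (0 : ℝ) < dd := Nat.cast_pos.2 hdd
    have b2 : (0 : ℝ) < zd := Nat.cast_pos.2 hzd
    rw [div_mul_eq_mul_div, div_le_div_iff₀ b1 b2]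
    linarith

theorem hps_reg4 : Hps (Off.reg 4) [0, 0, 0, 0, 8006399337547548] := by
  refine ⟨by decide, fun ν n v P hv hP h0 => (hP 4).step_reg.mono hv fun g _ => ?_⟩
  have := h0 4 g
  simp [sum_range_succ]
  linarith

/-- the check of the Poisson probabilities -/
def pOk (d : ℚ) (ps : List ℕ) : Prop :=
  0 < d ∧ d ≤ 8 ∧ (∀ p ∈ ps, p < 2 ^ 53) ∧ ∀ k < ps.length,
    (∑ m ∈ range 12, (d / 8) ^ m / m.factorial + (d / 8) ^ 12 * 13 / (479001600 * 12)) ^ 8 *
      (9 * ps.getD k 0 * k.factorial) ≤ 2 ^ 56 * d ^ k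

instance (d : ℚ) (ps : List ℕ) : Decidable (pOk d ps) := by unfold pOk; infer_instance

theorem hps_pois {d : ℚ} {ps : List ℕ} (h : pOk d ps) (hd : (0 : ℝ) < d) : Hps (Off.pois d hd) ps := by
  refine ⟨h.2.2.1, fun ν n v P hv hP h0 => (Dom.step_pois hd hv (K := ps.length)
    (p := fun k => (9 * ps.getD k 0 / 2 ^ 56 : ℝ)) (fun k _ => by positivity) (fun k hk => ?_)
    fun k _ => hP k).mono hv fun g _ => sum_le_sum_of_subset_of_nonneg (range_mono (Nat.le_succ _))
      fun k _ _ => mul_nonneg (by positivity) (h0 k g)⟩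
  rcases hk.eq_or_lt with rfl | hk
  · rw [List.getD_eq_default _ _ le_rfl]
    simp only [Nat.cast_zero, mul_zero, zero_div]
    positivity
  · have a1 := (Rat.cast_le (K := ℝ)).2 (h.2.2.2 k hk)
    have h8 : (d : ℝ) ≤ 8 := by exact_mod_cast h.2.1
    have a2 := Real.exp_bound' (x := d / 8) (by positivity) (by linarith) (n := 12) (by norm_num)
    have a3 : Real.exp d = Real.exp (d / 8) ^ 8 := by
      rw [← Real.exp_nat_mul]; congr 1; push_cast; ring
    have e : (((12 : ℕ) : ℝ) + 1) = 13 := by norm_num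
    have e' : (((12 : ℕ).factorial : ℝ) * (12 : ℕ)) = 479001600 * 12 := by norm_num [Nat.factorial]
    rw [e, e'] at a2
    push_cast at a1
    have a4 := (mul_le_mul_of_nonneg_right (pow_le_pow_left₀ (Real.exp_pos _).le a2 8)
      (by positivity)).trans a1
    rw [← a3] at a4
    rw [Real.exp_neg, div_le_div_iff₀ (by positivity) (by positivity), mul_assoc (_⁻¹),
      le_inv_mul_iff₀ (Real.exp_pos _)]
    linarith

/-- one interval of the Poisson family -/
theorem pois_int (hc : c.Ok) {ta tb dn dd k : ℕ} {ps : List ℕ} (hk : chk c tb ps k dn dd 4 25 = true)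
    (hp : (0 < ta ∧ tb ≤ 512 ∧ 0 < dd ∧ 2 ^ 20 * dd ≤ dn * (ta * tb)) ∧ pOk (dn / dd) ps)
    {d t : ℝ} (hd : 0 < d) (h : Adm 3 (-t)) (hdt : d * t ^ 2 = 1) (h1 : ta ≤ 1024 * t)
    (h2 : 1024 * t ≤ tb) : ∃ n, zseq (Off.pois d hd) t h n ≤ 4 / 25 := by
  obtain ⟨⟨a1, a2, a3, a4⟩, hp⟩ := hp
  have b1 : (0 : ℝ) < ta := Nat.cast_pos.2 a1
  have b2 : (tb : ℝ) ≤ 512 := by exact_mod_cast a2
  have b3 : (0 : ℝ) < dd := Nat.cast_pos.2 a3
  have b4 : (2 : ℝ) ^ 20 * dd ≤ dn * (ta * tb) := by exact_mod_cast a4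
  have hd' : (0 : ℝ) < ((dn / dd : ℚ) : ℝ) := by exact_mod_cast hp.1
  have hA : Adm 3 (-((tb : ℝ) / 1024)) := adm3_neg (by positivity) (by linarith)
  have e : ((dn / dd : ℚ) : ℝ) = dn / dd := by push_cast; rfl
  refine ⟨k, (zseq_dom hd hd' h hA (by linarith) (by linarith) hdt ?_ k).trans
    ((sound hc a2 hA (hps_pois hp hd') e a3 (by norm_num) hk).trans (by norm_num))⟩
  rw [e, div_mul_eq_mul_div, le_div_iff₀ b3]
  have := mul_le_mul_of_nonneg_left h1 (show (0 : ℝ) ≤ dn * tb by positivity)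
  linarith

end Crest.Agent.R163.DE
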