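import Crest.Agent.R163.ALimit

/-!
# R163/DE/Theory: rigorous density evolution (abstract part)

`Dom μ n v w`: the experiment `μ` is less informative than the symmetrised finite family `w g • v g`, `g < n`.
Recipes.  `Dom.complete`: apply the hypothesis to `ψ' L = ψ L - ψ e * ∑ i, L i` (`e = ![1,0,0]`; `ψ'` is `Good` and `Symm`: `ψ L ≥ ∑ i, ψ (L i • e_i)`,
`Good.sum_le`), `E (∑ i, L i) = 3`.  `Dom.mul`: for a `Sym` experiment `E φ = E (sym φ)` with `sym φ L = (∑ π, φ (L ∘ π)) / 6` (`Sym.E_comp`), and `sym φ` is `Good`,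
`Symm`; use this first for the outer experiment (`E_prod`, `E_chan`, `Good.E_mul`, `Good.comp_Pm`; `L ↦ ρ.E (ψ (Pm L * ·))` is itself `Symm` since `ρ` is `Sym`),
then for `ρ` with `φ = ψ (b * ·)`; `ψ (b * (v ∘ π)) = ψ ((b ∘ π⁻¹) * v)`.  `Dom.step`: `hasSum_E_step`, drop the terms `k > K` (all terms are `≥ 0`).
`thin`: `E_{chan τ ρ} ψ ≥ τ E_ρ ψ + (1-τ) ψ 1` (see the proof of `chan_le`), hence by induction on `k` (generalising `ψ`)
`E_{pow (chan τ ρ) k} ψ ≥ ∑_j C(k,j) τ^j (1-τ)^(k-j) E_{pow ρ j} ψ`; sum against the Poisson weights (Cauchy product, see `order_pois_aux`);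
`chan (-(τ t')) μ` and `chan τ (chan (-t') μ)` have the same atoms (`Pm_Pm`).
`zseq_dom`: with `τ = t / tb`: `bp (pois d) (-t) n ≤ bp (pois d') (-tb) n` by induction (`thin`, `step_pois_mono`, `τ d = 1/(t tb) ≤ d'`), and
`gG (Pm (-t) L) ≤ τ gG (Pm (-tb) L)` (`Pm (-t) L = τ • b + (1-τ) avg • 1`, `good_G`).
-/

set_option autoImplicit false

namespace Crest.Agent.R163

open Finset

def Symm (ψ : Vec 3 → ℝ) : Prop := ∀ (L : Vec 3) (σ : Equiv.Perm (Fin 3)), ψ (L ∘ σ) = ψ L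

def Dom (μ : Exp 3) (n : ℕ) (v : ℕ → Vec 3) (w : ℕ → ℝ) : Prop :=
  ∀ ψ, Good ψ → Symm ψ → ∑ g ∈ range n, w g * ψ (v g) ≤ μ.E ψ

variable {n : ℕ} {v : ℕ → Vec 3}

theorem Theory_single {ψ : Vec 3 → ℝ} (hs : Symm ψ) (j : Fin 3) :
    ψ (Pi.single j 1) = ψ ![1, 0, 0] := by
  rw [← hs ![1, 0, 0] (Equiv.swap 0 j)]
  congr 1
  funext i
  fin_cases i <;> fin_cases j <;> simp [Equiv.swap_apply_def]

theorem Theory_nn_single (j : Fin 3) : NN (Pi.single j 1 : Vec 3) := fun i => by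
  rw [Pi.single_apply]; split_ifs <;> norm_num

theorem Theory_ge {ψ : Vec 3 → ℝ} (h : Good ψ) (hs : Symm ψ) {L : Vec 3} (hL : NN L) :
    3 * ψ ![1, 0, 0] * avg L ≤ ψ L := by
  have h2 := h.sum_le Finset.univ (fun j : Fin 3 => L j • (Pi.single j 1 : Vec 3))
    fun j _ i => mul_nonneg (hL j) (Theory_nn_single j i)
  have h3 : ∑ j : Fin 3, L j • (Pi.single j 1 : Vec 3) = L := by
    funext i
    simp [Finset.sum_apply, Pi.single_apply]
  rw [h3] at h2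
  refine le_trans (le_of_eq ?_) h2
  rw [Finset.sum_congr rfl fun j _ => (h.smul _ _ (hL j) (Theory_nn_single j)).trans
    (by rw [Theory_single hs j]), ← Finset.sum_mul, avg]
  push_cast
  ring

/-- symmetrisation -/
noncomputable def Theory_sym (φ : Vec 3 → ℝ) (L : Vec 3) : ℝ :=
  (∑ π : Equiv.Perm (Fin 3), φ (L ∘ π)) / 6

theorem Theory_sym_good {φ : Vec 3 → ℝ} (h : Good φ) : Good (Theory_sym φ) where
  nonneg L hL := div_nonneg (sum_nonneg fun π _ => (h.comp_perm π).nonneg L hL) (by norm_num)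
  add L L' hL hL' := by
    unfold Theory_sym
    rw [← add_div, ← sum_add_distrib]
    exact div_le_div_of_nonneg_right (sum_le_sum fun π _ => (h.comp_perm π).add L L' hL hL')
      (by norm_num)
  smul c L hc hL := by
    unfold Theory_sym
    rw [← mul_div_assoc, mul_sum]
    congr 1
    exact sum_congr rfl fun π _ => (h.comp_perm π).smul c L hc hL

theorem Theory_sym_symm (φ : Vec 3 → ℝ) : Symm (Theory_sym φ) := by
  intro L σ
  unfold Theory_sym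
  congr 1
  rw [← Equiv.sum_comp (Equiv.mulLeft σ) fun π : Equiv.Perm (Fin 3) => φ (L ∘ π)]
  rfl

theorem Theory_E_sym {ρ : Exp 3} (hρ : ρ.Sym) {φ : Vec 3 → ℝ} (h : Good φ) :
    ρ.E (Theory_sym φ) = ρ.E φ := by
  have e : Theory_sym φ = fun L => (1 / 6 : ℝ) * ∑ π : Equiv.Perm (Fin 3), φ (L ∘ π) := by
    funext L; unfold Theory_sym; ring
  rw [e, Exp.E_const_mul, alim_E_sum ρ univ (ψ := fun (π : Equiv.Perm (Fin 3)) L => φ (L ∘ π))
    fun π => (h.comp_perm π).lin, sum_congr rfl fun π _ => hρ.E_comp φ π, sum_const, card_univ,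
    Fintype.card_perm, Fintype.card_fin, nsmul_eq_mul]
  norm_num [Nat.factorial]
  ring

/-- one thinned observation -/
theorem Theory_chan (μ : Exp 3) {τ t : ℝ} (h0 : 0 ≤ τ) (h1 : τ ≤ 1) (h : Adm 3 (-t))
    (h' : Adm 3 (-(τ * t))) {ψ : Vec 3 → ℝ} (hψ : Good ψ) :
    τ * (Exp.chan (-t) h μ).E ψ + (1 - τ) * ψ 1 ≤ (Exp.chan (-(τ * t)) h' μ).E ψ := by
  have hn1 : NN (1 : Vec 3) := fun _ => zero_le_one
  have hτ : 0 ≤ 1 - τ := sub_nonneg.2 h1
  rw [Exp.E_chan, Exp.E_chan]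
  have hl := (hψ.comp_Pm h).lin
  have h2 : μ.E (fun L => τ * ψ (Pm (-t) L) + ((1 - τ) * ψ 1) * avg L) ≤
      μ.E fun L => ψ (Pm (-(τ * t)) L) := by
    refine μ.E_mono ((hl.const_mul _).add (lin_avg.const_mul _)) (hψ.comp_Pm h').lin
      fun L hL => ?_
    have hb := Pm_nonneg h hL
    have h3 : 0 ≤ (1 - τ) * avg L := mul_nonneg hτ (avg_nonneg hL)
    have h4 := hψ.add (τ • Pm (-t) L) (((1 - τ) * avg L) • (1 : Vec 3))
      (fun i => mul_nonneg h0 (hb i)) fun i => mul_nonneg h3 (hn1 i)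
    have h5 : τ • Pm (-t) L + ((1 - τ) * avg L) • (1 : Vec 3) = Pm (-(τ * t)) L := by
      funext i; simp [Pm]; ring
    rw [h5, hψ.smul _ _ h0 hb, hψ.smul _ _ h3 hn1] at h4
    linarith
  rw [Exp.E_add _ (hl.const_mul _) (lin_avg.const_mul _), Exp.E_const_mul, Exp.E_const_mul,
    Exp.E_avg, mul_one] at h2
  exact h2

/-- binomial thinning of `k` observations -/
theorem Theory_pow {σ ρ : Exp 3} {τ : ℝ} (h0 : 0 ≤ τ) (h1 : τ ≤ 1)
    (H : ∀ ψ, Good ψ → τ * ρ.E ψ + (1 - τ) * ψ 1 ≤ σ.E ψ) (k : ℕ) :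
    ∀ ψ, Good ψ → ∑ p ∈ antidiagonal k,
      (k.choose p.1 : ℝ) * (τ ^ p.1 * (1 - τ) ^ p.2 * (ρ.pow p.1).E ψ) ≤ (σ.pow k).E ψ := by
  induction k with
  | zero => intro ψ _; simp [Exp.pow]
  | succ k ih =>
    intro ψ hψ
    have hτ : 0 ≤ 1 - τ := sub_nonneg.2 h1
    have hψ' : Good fun L' => ρ.E fun L => ψ (L * L') := by
      simpa only [mul_comm] using hψ.E_mul ρ
    have a1 := H _ (hψ.E_mul (σ.pow k))
    rw [← Exp.E_prod _ _ hψ.lin, ← Exp.E_prod _ _ hψ.lin, Exp.E_prod' ρ _ hψ.lin] at a1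
    simp only [one_mul] at a1
    have a2 := ih ψ hψ
    have a3 := ih _ hψ'
    rw [Finset.sum_antidiagonal_choose_succ_mul
      (fun i j => τ ^ i * (1 - τ) ^ j * (ρ.pow i).E ψ) k]
    have b1 : ∑ p ∈ antidiagonal k,
        (k.choose p.1 : ℝ) * (τ ^ p.1 * (1 - τ) ^ (p.2 + 1) * (ρ.pow p.1).E ψ) =
        (1 - τ) * ∑ p ∈ antidiagonal k,
          (k.choose p.1 : ℝ) * (τ ^ p.1 * (1 - τ) ^ p.2 * (ρ.pow p.1).E ψ) := by
      rw [mul_sum]; exact sum_congr rfl fun p _ => by ring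
    have b2 : ∑ p ∈ antidiagonal k,
        (k.choose p.2 : ℝ) * (τ ^ (p.1 + 1) * (1 - τ) ^ p.2 * (ρ.pow (p.1 + 1)).E ψ) =
        τ * ∑ p ∈ antidiagonal k, (k.choose p.1 : ℝ) *
          (τ ^ p.1 * (1 - τ) ^ p.2 * (ρ.pow p.1).E fun L' => ρ.E fun L => ψ (L * L')) := by
      rw [mul_sum]
      refine sum_congr rfl fun p hp => ?_
      rw [← Exp.E_prod' ρ _ hψ.lin, ← Nat.choose_symm_of_eq_add (mem_antidiagonal.1 hp).symm]
      change _ * (_ * _ * (Exp.prod ρ (ρ.pow p.1)).E ψ) = _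
      ring
    rw [b1, b2]
    have c1 := mul_le_mul_of_nonneg_left a2 hτ
    have c2 := mul_le_mul_of_nonneg_left a3 h0
    change _ ≤ (Exp.prod σ (σ.pow k)).E ψ
    change τ * _ + (1 - τ) * (σ.pow k).E ψ ≤ _ at a1
    linarith

/-- Poisson thinning for sequences -/
theorem Theory_pois {a b : ℕ → ℝ} {d τ s s' : ℝ} (hd : 0 ≤ d)
    (hab : ∀ k, ∑ p ∈ antidiagonal k, (k.choose p.1 : ℝ) * (τ ^ p.1 * (1 - τ) ^ p.2 * a p.1) ≤ b k)
    (hs : HasSum (fun k : ℕ => Real.exp (-d) * d ^ k / (k.factorial : ℝ) * b k) s)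
    (hs' : HasSum (fun k : ℕ => Real.exp (-(τ * d)) * (τ * d) ^ k / (k.factorial : ℝ) * a k) s') :
    s' ≤ s := by
  have hρ : HasSum (fun k : ℕ => Real.exp (-((1 - τ) * d)) * ((1 - τ) * d) ^ k /
      (k.factorial : ℝ)) 1 := by
    have := (Off.hasSum_exp ((1 - τ) * d)).mul_left (Real.exp (-((1 - τ) * d)))
    rw [← Real.exp_add, neg_add_cancel, Real.exp_zero] at this
    simpa [mul_div_assoc] using this
  have h1 := hs'.summable.norm
  have h2 := hρ.summable.norm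
  have h3 := tsum_mul_tsum_eq_tsum_sum_antidiagonal_of_summable_norm h1 h2
  have h4 := (summable_norm_sum_mul_antidiagonal_of_summable_norm h1 h2).of_norm
  rw [hs'.tsum_eq, hρ.tsum_eq, mul_one] at h3
  rw [h3]
  refine hasSum_le (fun k => ?_) h4.hasSum hs
  refine le_trans (le_of_eq ?_) (mul_le_mul_of_nonneg_left (hab k) (by positivity))
  rw [mul_sum]
  refine sum_congr rfl fun p hp => ?_
  obtain rfl : p.1 + p.2 = k := mem_antidiagonal.1 hp
  have e1 : Real.exp (-d) = Real.exp (-(τ * d)) * Real.exp (-((1 - τ) * d)) := by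
    rw [← Real.exp_add]; congr 1; ring
  rw [Nat.cast_add_choose, e1, mul_pow, mul_pow, pow_add]
  have f1 : ((p.1 + p.2).factorial : ℝ) ≠ 0 := by positivity
  have f2 : (p.1.factorial : ℝ) ≠ 0 := by positivity
  have f3 : (p.2.factorial : ℝ) ≠ 0 := by positivity
  field_simp

/-- splitting a vector into four atoms -/
theorem split4 {ψ : Vec 3 → ℝ} (h : Good ψ) (hs : Symm ψ) {L v1 v2 v3 v4 : Vec 3} {c1 c2 c3 c4 : ℝ}
    (h1 : NN v1) (h2 : NN v2) (h3 : NN v3) (h4 : NN v4) (g1 : 0 ≤ c1) (g2 : 0 ≤ c2) (g3 : 0 ≤ c3) (g4 : 0 ≤ c4)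
    (σ : Equiv.Perm (Fin 3)) (hL : ∀ i, c1 * v1 i + c2 * v2 i + c3 * v3 i + c4 * v4 i ≤ L (σ i)) :
    c1 * ψ v1 + c2 * ψ v2 + c3 * ψ v3 + c4 * ψ v4 ≤ ψ L := by
  have n1 : NN (c1 • v1) := fun i => mul_nonneg g1 (h1 i)
  have n2 : NN (c2 • v2) := fun i => mul_nonneg g2 (h2 i)
  have n3 : NN (c3 • v3) := fun i => mul_nonneg g3 (h3 i)
  have n4 : NN (c4 • v4) := fun i => mul_nonneg g4 (h4 i)
  have n12 : NN (c1 • v1 + c2 • v2) := fun i => add_nonneg (n1 i) (n2 i)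
  have n123 : NN (c1 • v1 + c2 • v2 + c3 • v3) := fun i => add_nonneg (n12 i) (n3 i)
  have a1 := h.add _ _ n1 n2
  have a2 := h.add _ _ n12 n3
  have a3 := h.add _ _ n123 n4
  have a4 : ψ (c1 • v1 + c2 • v2 + c3 • v3 + c4 • v4) ≤ ψ (L ∘ σ) :=
    h.mono (fun i => add_nonneg (n123 i) (n4 i)) hL
  rw [h.smul _ _ g1 h1, h.smul _ _ g2 h2] at a1
  rw [h.smul _ _ g3 h3] at a2
  rw [h.smul _ _ g4 h4] at a3
  rw [hs] at a4
  linarith

theorem Dom.mono {μ : Exp 3} {w w' : ℕ → ℝ} (hv : ∀ g < n, NN (v g)) (h : Dom μ n v w)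
    (hw : ∀ g < n, w' g ≤ w g) : Dom μ n v w' := by
  intro ψ hψ hs
  refine le_trans (sum_le_sum fun g hg => ?_) (h ψ hψ hs)
  exact mul_le_mul_of_nonneg_right (hw g (mem_range.1 hg)) (hψ.nonneg _ (hv g (mem_range.1 hg)))

theorem dom_perfect {g0 : ℕ} (h0 : g0 < n) (hv : v g0 = ![1, 0, 0]) :
    Dom Exp.perfect n v fun g => if g = g0 then 3 else 0 := by
  intro ψ _ hs
  rw [Exp.E_perfect, sum_congr rfl fun j _ => Theory_single hs j]
  simp [ite_mul, h0, hv]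

theorem dom_unit {g1 : ℕ} (h1 : g1 < n) (hv : v g1 = 1) :
    Dom Exp.unit n v fun g => if g = g1 then 1 else 0 := by
  intro ψ _ _
  rw [Exp.E_unit]
  simp [ite_mul, h1, hv]

theorem Dom.complete {μ : Exp 3} {w : ℕ → ℝ} (h : Dom μ n v w) {g0 : ℕ} (h0 : g0 < n)
    (hv : v g0 = ![1, 0, 0]) :
    Dom μ n v fun g => w g + if g = g0 then 3 - ∑ x ∈ range n, w x * ∑ i, v x i else 0 := by
  intro ψ hψ hs
  have hg : Good fun L => ψ L - 3 * ψ ![1, 0, 0] * avg L :=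
    { nonneg := fun L hL => sub_nonneg.2 (Theory_ge hψ hs hL)
      add := fun L L' hL hL' => by
        have := hψ.add L L' hL hL'
        rw [avg_add]; linarith
      smul := fun c L hc hL => by rw [hψ.smul c L hc hL, avg_smul]; ring }
  have hs' : Symm fun L => ψ L - 3 * ψ ![1, 0, 0] * avg L := fun L σ => by
    simp only [hs L σ, avg_comp]
  have h1 := h _ hg hs'
  rw [Exp.E_sub _ hψ.lin (lin_avg.const_mul _), Exp.E_const_mul, Exp.E_avg] at h1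
  have h2 : ∑ g ∈ range n, w g * (ψ (v g) - 3 * ψ ![1, 0, 0] * avg (v g)) =
      ∑ g ∈ range n, w g * ψ (v g) - (∑ x ∈ range n, w x * ∑ i, v x i) * ψ ![1, 0, 0] := by
    rw [sum_mul, ← sum_sub_distrib]
    refine sum_congr rfl fun g _ => ?_
    unfold avg
    push_cast
    ring
  simp only [add_mul, sum_add_distrib, ite_mul, zero_mul, sum_ite_eq', mem_range, h0, if_true, hv]
  linarith

theorem Dom.mul {μ ρ : Exp 3} (hμ : μ.Sym) (hρ : ρ.Sym) {t : ℝ} (h : Adm 3 (-t)) {w a : ℕ → ℝ}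
    (hv : ∀ g < n, NN (v g)) (h1 : Dom μ n v w) (h2 : Dom ρ n v a) (hw : ∀ g < n, 0 ≤ w g)
    (ha : ∀ g < n, 0 ≤ a g) {V : ℕ → ℕ → ℕ → ℝ}
    (hV : ∀ x < n, ∀ g < n, ∀ ψ, Good ψ → Symm ψ → ∑ y ∈ range n, V x g y * ψ (v y) ≤
      (∑ π : Equiv.Perm (Fin 3), ψ (v g * (Pm (-t) (v x) ∘ π))) / 6) :
    Dom (Exp.prod (Exp.chan (-t) h μ) ρ) n v
      fun y => ∑ g ∈ range n, a g * ∑ x ∈ range n, w x * V x g y := by
  intro ψ hψ hs
  have hΦ : Good fun L => ρ.E fun L' => ψ (Pm (-t) L * L') := (hψ.E_mul ρ).comp_Pm h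
  have hΦs : Symm fun L => ρ.E fun L' => ψ (Pm (-t) L * L') := fun L σ => by
    show (ρ.E fun L' => ψ (Pm (-t) (L ∘ σ) * L')) = _
    rw [← hρ.E_comp _ σ, Pm_comp]
    congr 1
    funext L'
    exact hs (Pm (-t) L * L') σ
  have a1 := h1 _ hΦ hΦs
  rw [Exp.E_prod _ _ hψ.lin, Exp.E_chan]
  refine le_trans ?_ a1
  have a2 : ∀ x < n, ∑ g ∈ range n, a g * ∑ y ∈ range n, V x g y * ψ (v y) ≤
      ρ.E fun L' => ψ (Pm (-t) (v x) * L') := by
    intro x hx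
    have hφ : Good fun L' => ψ (Pm (-t) (v x) * L') := by
      simpa only [mul_comm] using hψ.comp_mul (Pm_nonneg h (hv x hx))
    rw [← Theory_E_sym hρ hφ]
    refine le_trans (sum_le_sum fun g hg => ?_) (h2 _ (Theory_sym_good hφ) (Theory_sym_symm _))
    refine mul_le_mul_of_nonneg_left ((hV x hx g (mem_range.1 hg) ψ hψ hs).trans (le_of_eq ?_))
      (ha g (mem_range.1 hg))
    unfold Theory_sym
    congr 1
    rw [← Equiv.sum_comp (Equiv.inv (Equiv.Perm (Fin 3)))]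
    refine sum_congr rfl fun π _ => ?_
    rw [← hs _ π]
    congr 1
    funext i
    simp [mul_comm]
  calc ∑ y ∈ range n, (∑ g ∈ range n, a g * ∑ x ∈ range n, w x * V x g y) * ψ (v y)
      = ∑ x ∈ range n, w x * ∑ g ∈ range n, a g * ∑ y ∈ range n, V x g y * ψ (v y) := by
        simp only [mul_sum, sum_mul]
        rw [sum_comm]
        conv_rhs => rw [sum_comm]
        refine sum_congr rfl fun g _ => ?_
        rw [sum_comm]
        exact sum_congr rfl fun x _ => sum_congr rfl fun y _ => by ring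
    _ ≤ _ := sum_le_sum fun x hx =>
        mul_le_mul_of_nonneg_left (a2 x (mem_range.1 hx)) (hw x (mem_range.1 hx))

theorem Dom.step_reg {ν : Exp 3} {b : ℕ} {w : ℕ → ℝ} (h : Dom (ν.pow b) n v w) :
    Dom (Exp.step (Off.reg b) ν) n v w := by
  intro ψ hψ hs
  have h1 : HasSum (fun _ : Unit => 1 * (ν.pow b).E ψ) ((Exp.step (Off.reg b) ν).E ψ) :=
    Exp.hasSum_E_step (Off.reg b) ν hψ.lin hψ.hom
  have h2 := h1.unique (hasSum_fintype _)
  rw [h2]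
  simpa using h ψ hψ hs

theorem Dom.step_pois {ν : Exp 3} {d : ℝ} (hd : 0 < d) (hv : ∀ g < n, NN (v g)) {K : ℕ} {p : ℕ → ℝ}
    {P : ℕ → ℕ → ℝ} (hp0 : ∀ k ≤ K, 0 ≤ p k)
    (hp : ∀ k ≤ K, p k ≤ Real.exp (-d) * d ^ k / (k.factorial : ℝ))
    (hP : ∀ k ≤ K, Dom (ν.pow k) n v (P k)) :
    Dom (Exp.step (Off.pois d hd) ν) n v fun g => ∑ k ∈ range (K + 1), p k * P k g := by
  intro ψ hψ hs
  have h1 : HasSum (fun k : ℕ => Real.exp (-d) * d ^ k / (k.factorial : ℝ) * (ν.pow k).E ψ)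
      ((Exp.step (Off.pois d hd) ν).E ψ) := Exp.hasSum_E_step (Off.pois d hd) ν hψ.lin hψ.hom
  refine le_trans ?_ (sum_le_hasSum (range (K + 1))
    (fun k _ => mul_nonneg (by positivity) (Exp.E_nonneg _ hψ.nonneg)) h1)
  calc ∑ g ∈ range n, (∑ k ∈ range (K + 1), p k * P k g) * ψ (v g)
      = ∑ k ∈ range (K + 1), p k * ∑ g ∈ range n, P k g * ψ (v g) := by
        simp only [mul_sum, sum_mul]
        rw [sum_comm]
        exact sum_congr rfl fun k _ => sum_congr rfl fun g _ => by ring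
    _ ≤ _ := sum_le_sum fun k hk => by
        have hk' := Nat.lt_succ_iff.1 (mem_range.1 hk)
        exact (mul_le_mul_of_nonneg_left (hP k hk' ψ hψ hs) (hp0 k hk')).trans
          (mul_le_mul_of_nonneg_right (hp k hk') (Exp.E_nonneg _ hψ.nonneg))

/-- the final bound; `G g` is a lower bound for the geometric mean of `Pm (-t) (v g)` -/
theorem Dom.zseq_le {O : Off} {t : ℝ} (h : Adm 3 (-t)) {m : ℕ} {w G : ℕ → ℝ}
    (hv : ∀ g < n, NN (v g)) (hw : ∀ g < n, 0 ≤ w g) (hD : Dom (Exp.bp O (-t) h m) n v w)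
    (hG : ∀ g < n, G g ^ 3 ≤ Pm (-t) (v g) 0 * Pm (-t) (v g) 1 * Pm (-t) (v g) 2) :
    zseq O t h m ≤ O.d * (1 - ∑ g ∈ range n, w g * G g) := by
  rw [alim_zseq, Exp.E_chan]
  refine mul_le_mul_of_nonneg_left (sub_le_sub_left ?_ 1) (alim_d_nonneg O)
  refine le_trans (sum_le_sum fun g hg => ?_)
    (hD _ (good_G.comp_Pm h) fun L σ => by simp only [Pm_comp, mS_comp])
  have hg' := mem_range.1 hg
  have hb := Pm_nonneg h (hv g hg')
  refine mul_le_mul_of_nonneg_left ?_ (hw g hg')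
  have h0 := mul_nonneg (mul_nonneg (hb 0) (hb 1)) (hb 2)
  rw [mS_sG_eq hb]
  refine le_of_pow_le_pow_left₀ (n := 3) (by norm_num) (Real.rpow_nonneg h0 _) ?_
  rw [← Real.rpow_natCast (_ ^ (1 / 3 : ℝ)), ← Real.rpow_mul h0]
  norm_num
  exact hG g hg'

/-- Poisson thinning -/
theorem thin (μ : Exp 3) {d τ t : ℝ} (hd : 0 < d) (h0 : 0 < τ) (h1 : τ ≤ 1) (h : Adm 3 (-t))
    (h' : Adm 3 (-(τ * t))) :
    (Exp.step (Off.pois d hd) (Exp.chan (-(τ * t)) h' μ)).Le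
      (Exp.step (Off.pois (τ * d) (mul_pos h0 hd)) (Exp.chan (-t) h μ)) := by
  intro ψ hψ
  exact Theory_pois (a := fun k => ((Exp.chan (-t) h μ).pow k).E ψ)
    (b := fun k => ((Exp.chan (-(τ * t)) h' μ).pow k).E ψ) hd.le
    (fun k => Theory_pow h0.le h1 (fun _ hφ => Theory_chan μ h0.le h1 h h' hφ) k ψ hψ)
    (Exp.hasSum_E_step (Off.pois d hd) _ hψ.lin hψ.hom)
    (Exp.hasSum_E_step (Off.pois (τ * d) (mul_pos h0 hd)) _ hψ.lin hψ.hom)

theorem zseq_dom {d d' t tb : ℝ} (hd : 0 < d) (hd' : 0 < d') (h : Adm 3 (-t)) (hb : Adm 3 (-tb))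
    (h0 : 0 < t) (h1 : t ≤ tb) (hdt : d * t ^ 2 = 1) (hdd : 1 ≤ d' * (t * tb)) (m : ℕ) :
    zseq (Off.pois d hd) t h m ≤ zseq (Off.pois d' hd') tb hb m := by
  have htb : 0 < tb := h0.trans_le h1
  obtain ⟨τ, hτ0, hτ1, rfl⟩ : ∃ τ : ℝ, 0 < τ ∧ τ ≤ 1 ∧ t = τ * tb :=
    ⟨t / tb, div_pos h0 htb, (div_le_one htb).2 h1, by field_simp⟩
  have hle : τ * d ≤ d' := by
    have e : τ * d * (τ * tb * tb) ≤ d' * (τ * tb * tb) := by nlinarith
    exact le_of_mul_le_mul_right e (by positivity)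
  have key : ∀ m, (Exp.bp (Off.pois d hd) (-(τ * tb)) h m).Le
      (Exp.bp (Off.pois d' hd') (-tb) hb m) := by
    intro m
    induction m with
    | zero => exact Exp.Le.refl _
    | succ m ih =>
      exact (((ih.chan h).step _).trans (thin _ hd hτ0 hτ1 hb h)).trans
        (Exp.step_pois_mono _ _ hd' hle)
  rw [alim_zseq, alim_zseq]
  have a1 := (key m).chan h _ good_G
  have a2 := Theory_chan (Exp.bp (Off.pois d' hd') (-tb) hb m) hτ0.le hτ1 hb h good_G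
  have a3 := (Exp.chan (-tb) hb (Exp.bp (Off.pois d' hd') (-tb) hb m)).E_le_of_good good_G
  rw [mS_one] at a2 a3
  change d * _ ≤ d' * _
  have a4 := mul_le_mul_of_nonneg_right hle (sub_nonneg.2 a3)
  nlinarith

end Crest.Agent.R163
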