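import Crest.Agent.R163.DE.Pack
import Crest.Agent.R163.DE.Theory

/-!
# R163/DE/Split: the rows of the multiplication table
-/

set_option autoImplicit false

namespace Crest.Agent.R163.DE

open Finset

/-- a triple of natural numbers as a vector -/
def vc (a b c : ℕ) : Vec 3 := ![a, b, c]

/-- the atoms -/
noncomputable def Cf.v (c : Cf) (g : ℕ) : Vec 3 :=
  (1 / 128 : ℝ) • vc (c.T.atm g).1 (c.T.atm g).2.1 (c.T.atm g).2.2

theorem nn_vc (a b c : ℕ) : NN (vc a b c) := fun i => by fin_cases i <;> simp [vc]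

theorem nn_smul {r : ℝ} (hr : 0 ≤ r) {L : Vec 3} (h : NN L) : NN (r • L) := fun i =>
  mul_nonneg hr (h i)

theorem Cf.nn_v (c : Cf) (g : ℕ) : NN (c.v g) := nn_smul (by norm_num) (nn_vc _ _ _)

theorem symm_swap {ψ : Vec 3 → ℝ} (hs : Symm ψ) (r : ℝ) (a b c : ℕ) :
    ψ (r • vc a c b) = ψ (r • vc a b c) := by
  rw [← hs _ (Equiv.swap 1 2)]
  congr 1
  funext i
  fin_cases i <;> rfl

theorem symm_swap' {ψ : Vec 3 → ℝ} (hs : Symm ψ) (a b c : ℕ) : ψ (vc b a c) = ψ (vc a b c) := by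
  rw [← hs _ (Equiv.swap 0 1)]
  congr 1
  funext i
  fin_cases i <;> rfl

theorem symm_cyc {ψ : Vec 3 → ℝ} (hs : Symm ψ) (a b c : ℕ) : ψ (vc c a b) = ψ (vc a b c) := by
  have := symm_swap hs 1 a b c
  rw [one_smul, one_smul] at this
  rw [symm_swap' hs, this]

/-- `r` is a packed row with lanes `≤ B` whose value is `≤ Φ` -/
def Row (c : Cf) (r B : ℕ) (Φ : (Vec 3 → ℝ) → ℝ) : Prop :=
  ∃ f : ℕ → ℕ, r = pk 64 c.n f ∧ (∀ y, f y ≤ B) ∧
    ∀ ψ, Good ψ → Symm ψ → ∑ y ∈ range c.n, f y * ψ (c.v y) ≤ Φ ψ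

variable {c : Cf}

theorem Row.add {r r' B B' : ℕ} {Φ Φ' : (Vec 3 → ℝ) → ℝ} (h : Row c r B Φ) (h' : Row c r' B' Φ') :
    Row c (Nat.add r r') (B + B') fun ψ => Φ ψ + Φ' ψ := by
  obtain ⟨f, rfl, h1, h2⟩ := h
  obtain ⟨f', rfl, h1', h2'⟩ := h'
  refine ⟨_, pk_add _ _ _ _, fun y => add_le_add (h1 y) (h1' y), fun ψ hg hs => ?_⟩
  simp only [Nat.cast_add, add_mul, sum_add_distrib]
  exact add_le_add (h2 ψ hg hs) (h2' ψ hg hs)

theorem Row.mono {r B B' : ℕ} {Φ Φ' : (Vec 3 → ℝ) → ℝ} (h : Row c r B Φ) (hB : B ≤ B')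
    (hΦ : ∀ ψ, Good ψ → Symm ψ → Φ ψ ≤ Φ' ψ) : Row c r B' Φ' := by
  obtain ⟨f, rfl, h1, h2⟩ := h
  exact ⟨f, rfl, fun y => (h1 y).trans hB, fun ψ hg hs => (h2 ψ hg hs).trans (hΦ ψ hg hs)⟩

theorem Row.single {y : ℕ} (hy : y < c.n) (x : ℕ) :
    Row c (x * 2 ^ (64 * y)) x fun ψ => x * ψ (c.v y) := by
  refine ⟨_, pk_single hy x, fun i => by split_ifs <;> omega, fun ψ _ _ => le_of_eq ?_⟩
  simp [hy]

theorem Row.junk (h : c.Ok) (x : ℕ) : Row c x x fun _ => 0 := by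
  have h1 := Row.single (c := c) (y := 0) (by have := h.2.2.1; omega) x
  rw [mul_zero, pow_zero, mul_one] at h1
  refine h1.mono le_rfl fun ψ hg _ => le_of_eq ?_
  have e : c.v 0 = (0 : ℝ) • vc 0 0 0 := by
    rw [Cf.v, h.2.2.2.2.1]
    funext i
    fin_cases i <;> simp [vc]
  rw [e, hg.smul _ _ le_rfl (nn_vc _ _ _), zero_mul, mul_zero]

theorem Row.put (h : c.Ok) {i j : ℕ} (hi : i < c.M) (hj : j < c.M) (x : ℕ) :
    Row c (put c x (32 * i + j)) x fun ψ =>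
      x * ψ ((1 / 128 : ℝ) • vc 128 (look c.tX i) (look c.tX j)) := by
  obtain ⟨h1, h2, h3⟩ := h.2.2.2.2.2.2.2.2.2 i hi j hj
  have e : DE.put c x (32 * i + j) = x * 2 ^ (64 * (look c.tP (32 * i + j) / 64)) := by
    rw [← h1]
    exact Nat.shiftLeft_eq _ _
  rw [e]
  refine (Row.single h2 x).mono le_rfl fun ψ _ hs => le_of_eq ?_
  rcases h3 with h3 | h3
  · rw [Cf.v, h3]
  · rw [Cf.v, h3, symm_swap hs]

theorem frac_spec (h : c.Ok) {L Z : ℕ} (hL : L ≤ Z) : cell c L Z + 1 < c.M ∧ frac c L Z ≤ Z ∧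
    (Z - frac c L Z) * look c.tX (cell c L Z) + frac c L Z * look c.tX (cell c L Z + 1) ≤ 128 * L := by
  have hq : 128 * L / Z < 129 :=
    Nat.lt_succ_of_le (Nat.div_le_of_le_mul (by rw [mul_comm Z]; omega))
  obtain ⟨h1, h2, h3, h4⟩ := h.2.2.2.2.2.2.2.2.1 _ hq
  have e : frac c L Z = (128 * L - look c.tX (cell c L Z) * Z) /
    (look c.tX (cell c L Z + 1) - look c.tX (cell c L Z)) := rfl
  change cell c L Z + 1 < c.M at h1
  change look c.tX (cell c L Z) ≤ _ at h2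
  change look c.tX (cell c L Z) < look c.tX (cell c L Z + 1) at h3
  change _ ≤ look c.tX (cell c L Z + 1) at h4
  obtain ⟨D, hD⟩ := Nat.exists_eq_add_of_le h3.le
  rw [hD, Nat.add_sub_cancel_left] at e
  rw [hD] at h4 ⊢
  generalize look c.tX (cell c L Z) = X at *
  have a1 : X * Z ≤ 128 * L := (Nat.mul_le_mul_right Z h2).trans (Nat.div_mul_le_self _ _)
  have a2 : 128 * L ≤ (X + D) * Z := by
    rcases Nat.eq_zero_or_pos Z with rfl | hZ
    · omega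
    · refine le_trans ?_ (Nat.mul_le_mul_right Z h4)
      have := Nat.lt_mul_div_succ (128 * L) hZ
      rw [min_mul, mul_comm _ Z]
      omega
  have a3 : frac c L Z ≤ Z := by
    rw [e]
    refine Nat.div_le_of_le_mul ?_
    rw [add_mul] at a2
    omega
  have a4 : frac c L Z * D ≤ 128 * L - X * Z := e ▸ Nat.div_mul_le_self _ _
  refine ⟨h1, a3, ?_⟩
  rw [mul_add, ← add_assoc, ← add_mul, Nat.sub_add_cancel a3, mul_comm Z]
  omega

theorem split3 {ψ : Vec 3 → ℝ} (hg : Good ψ) (hs : Symm ψ) {a b c' x y x' y' x'' y'' Z L L' : ℕ}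
    (h0 : a + b + c' ≤ Z) (h1 : a * x + b * x' + c' * x'' ≤ 128 * L)
    (h2 : a * y + b * y' + c' * y'' ≤ 128 * L') :
    a * ψ ((1 / 128 : ℝ) • vc 128 x y) + (b * ψ ((1 / 128 : ℝ) • vc 128 x' y') +
      c' * ψ ((1 / 128 : ℝ) • vc 128 x'' y'')) ≤ ψ (vc Z L L') := by
  have n1 : ∀ x y, NN ((1 / 128 : ℝ) • vc 128 x y) := fun x y => nn_smul (by norm_num) (nn_vc _ _ _)
  have := split4 hg hs (L := vc Z L L') (n1 x y) (n1 x' y') (n1 x'' y'') (n1 0 0) (Nat.cast_nonneg a)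
    (Nat.cast_nonneg b) (Nat.cast_nonneg c') le_rfl 1 fun i => by
      have b0 := (Nat.cast_le (α := ℝ)).2 h0
      have b1 := (Nat.cast_le (α := ℝ)).2 h1
      have b2 := (Nat.cast_le (α := ℝ)).2 h2
      push_cast at b0 b1 b2
      fin_cases i <;> simp [vc] <;> linarith
  linarith

theorem Row.spl (h : c.Ok) {Z L L' : ℕ} (hL : L ≤ Z) (hL' : L' ≤ Z) :
    Row c (spl c Z L L') Z fun ψ => ψ (vc Z L L') := by
  obtain ⟨a1, a2, a3⟩ := frac_spec h hL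
  obtain ⟨b1, b2, b3⟩ := frac_spec h hL'
  rw [DE.spl, force_eq, spl3]
  generalize frac c L Z = A at *
  generalize frac c L' Z = B at *
  generalize cell c L Z = i at *
  generalize cell c L' Z = j at *
  have e1 : Nat.add (Nat.add (Nat.mul 32 i) j) 1 = 32 * i + (j + 1) := rfl
  have e2 : Nat.add (Nat.add (Nat.mul 32 i) j) 32 = 32 * (i + 1) + j := by
    change 32 * i + j + 32 = _; omega
  have e3 : Nat.add (Nat.add (Nat.mul 32 i) j) 33 = 32 * (i + 1) + (j + 1) := by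
    change 32 * i + j + 33 = _; omega
  rw [e1, e2, e3]
  cases e : Nat.ble B A
  · have hAB : A ≤ B := (Nat.not_le.1 (Nat.not_le_of_not_ble_eq_true (by simp [e]))).le
    refine ((Row.put h (i := i) (j := j) (by omega) (by omega) (Z - B)).add
      ((Row.put h (i := i) (by omega) b1 (B - A)).add (Row.put h a1 b1 A))).mono (by omega)
      fun ψ hg hs => split3 hg hs (by omega) ?_ ?_
    · rwa [← add_mul, show Z - B + (B - A) = Z - A by omega]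
    · rwa [add_assoc, ← add_mul, Nat.sub_add_cancel hAB]
  · have hAB : B ≤ A := Nat.le_of_ble_eq_true e
    refine ((Row.put h (i := i) (j := j) (by omega) (by omega) (Z - A)).add
      ((Row.put h (j := j) a1 (by omega) (A - B)).add (Row.put h a1 b1 B))).mono (by omega)
      fun ψ hg hs => split3 hg hs (by omega) ?_ ?_
    · rwa [add_assoc, ← add_mul, Nat.sub_add_cancel hAB]
    · rwa [← add_mul, show Z - A + (A - B) = Z - B by omega]

theorem Row.srt (h : c.Ok) {x y z B : ℕ} (hx : x ≤ B) (hy : y ≤ B) (hz : z ≤ B) :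
    Row c (srt c x y z) B fun ψ => ψ (vc x y z) := by
  have f : ∀ {a b : ℕ}, Nat.ble a b = false → b ≤ a := fun e =>
    (Nat.not_le.1 (Nat.not_le_of_not_ble_eq_true (by simp [e]))).le
  have t : ∀ {a b : ℕ}, Nat.ble a b = true → a ≤ b := Nat.le_of_ble_eq_true
  unfold DE.srt
  cases e : Nat.ble y x
  · cases e' : Nat.ble z y
    · exact (Row.spl h ((f e).trans (f e')) (f e')).mono hz fun ψ _ hs => (symm_cyc hs _ _ _).le
    · exact (Row.spl h (f e) (t e')).mono hy fun ψ _ hs => (symm_swap' hs _ _ _).le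
  · cases e' : Nat.ble z x
    · exact (Row.spl h (f e') ((t e).trans (f e'))).mono hz fun ψ _ hs => (symm_cyc hs _ _ _).le
    · exact (Row.spl h (t e) (t e')).mono hx fun ψ _ _ => le_rfl

theorem sum_perm3 (f : Fin 3 → Fin 3 → Fin 3 → ℝ) : ∑ π : Equiv.Perm (Fin 3), f (π 0) (π 1) (π 2) =
    f 0 1 2 + f 0 2 1 + (f 1 0 2 + f 1 2 0 + (f 2 0 1 + f 2 1 0)) := by
  have h := alim_sum_perm3 fun i j => f i j (-(i + j))
  have e : ∀ π : Equiv.Perm (Fin 3), π 2 = -(π 0 + π 1) := by decide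
  simp only [← e] at h
  rw [h]
  change f 0 1 2 + f 0 2 1 + f 1 0 2 + f 1 2 0 + f 2 0 1 + f 2 1 0 = _
  ring

theorem Row.row (h : c.Ok) {b0 b1 b2 a0 a1 a2 B : ℕ} (h0 : a0 ≤ 128) (h1 : a1 ≤ 128) (h2 : a2 ≤ 128)
    (g0 : b0 ≤ B) (g1 : b1 ≤ B) (g2 : b2 ≤ B) : Row c (row c b0 b1 b2 a0 a1 a2) (1024 * B) fun ψ =>
      ∑ π : Equiv.Perm (Fin 3), ψ (vc a0 a1 a2 * (vc b0 b1 b2 ∘ π)) := by
  have m : ∀ {a b : ℕ}, a ≤ 128 → b ≤ B → Nat.mul a b ≤ 128 * B := fun ha hb => Nat.mul_le_mul ha hb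
  refine ((Row.junk h _).add (((Row.srt h (m h0 g0) (m h1 g1) (m h2 g2)).add
    (Row.srt h (m h0 g0) (m h1 g2) (m h2 g1))).add (((Row.srt h (m h0 g1) (m h1 g0) (m h2 g2)).add
    (Row.srt h (m h0 g1) (m h1 g2) (m h2 g0))).add ((Row.srt h (m h0 g2) (m h1 g0) (m h2 g1)).add
    (Row.srt h (m h0 g2) (m h1 g1) (m h2 g0)))))).mono ?_ fun ψ _ _ => le_of_eq ?_
  · have := m h1 g1
    have := m h2 g2
    change Nat.mul a1 b1 + Nat.mul a2 b2 + _ ≤ _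
    omega
  · have e : ∀ π : Equiv.Perm (Fin 3), vc a0 a1 a2 * (vc b0 b1 b2 ∘ π) =
        vc (a0 * ![b0, b1, b2] (π 0)) (a1 * ![b0, b1, b2] (π 1)) (a2 * ![b0, b1, b2] (π 2)) := by
      intro π
      have e' : ∀ j, vc b0 b1 b2 j = (![b0, b1, b2] j : ℕ) := fun j => by fin_cases j <;> rfl
      funext i
      rw [Pi.mul_apply, Function.comp_apply, e']
      fin_cases i <;> simp [vc]
    simp only [e]
    rw [sum_perm3 fun i j k =>
      ψ (vc (a0 * ![b0, b1, b2] i) (a1 * ![b0, b1, b2] j) (a2 * ![b0, b1, b2] k)), zero_add]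
    rfl

theorem bn_le {tn : ℕ} (ht : tn ≤ 512) {a0 a1 a2 : ℕ} (h0 : a0 ≤ 128) (h1 : a1 ≤ 128) (h2 : a2 ≤ 128)
    (a : ℕ) : bn tn (sm a0 a1 a2) a ≤ 589824 :=
  (Nat.sub_le _ _).trans (Nat.mul_le_mul (show 1024 + tn ≤ 1536 by omega)
    (show a0 + (a1 + a2) ≤ 384 by omega))

theorem Pm_vc {tn : ℕ} (ht : tn ≤ 512) (a0 a1 a2 : ℕ) :
    Pm (-((tn : ℝ) / 1024)) ((1 / 128 : ℝ) • vc a0 a1 a2) = (1 / 393216 : ℝ) •
      vc (bn tn (sm a0 a1 a2) a0) (bn tn (sm a0 a1 a2) a1) (bn tn (sm a0 a1 a2) a2) := by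
  have e : ∀ a ≤ a0 + (a1 + a2), (bn tn (sm a0 a1 a2) a : ℝ) =
      (1024 + tn) * (a0 + (a1 + a2)) - 3 * tn * a := fun a ha => by
    have : 3 * tn * a ≤ (1024 + tn) * (a0 + (a1 + a2)) := Nat.mul_le_mul (by omega) ha
    change (((1024 + tn) * (a0 + (a1 + a2)) - 3 * tn * a : ℕ) : ℝ) = _
    rw [Nat.cast_sub this]
    push_cast
    rfl
  have e0 := e a0 (by omega)
  have e1 := e a1 (by omega)
  have e2 := e a2 (by omega)
  funext i
  fin_cases i <;> simp [Pm, avg, vc, Fin.sum_univ_three, e0, e1, e2] <;> ring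

/-- the multiplication table -/
theorem exists_V (h : c.Ok) {tn : ℕ} (ht : tn ≤ 512) : ∃ V : ℕ → ℕ → ℕ → ℕ,
    toL (vx c tn) c.T [] = tab c.n (fun x => pk (64 * c.n) c.n fun g => pk 64 c.n (V x g)) ∧
    (∀ x < c.n, ∀ g < c.n, ∀ y, V x g y ≤ 9 * 2 ^ 26) ∧
    ∀ x < c.n, ∀ g < c.n, ∀ ψ, Good ψ → Symm ψ →
      ∑ y ∈ range c.n, (V x g y / (9 * 2 ^ 25) : ℝ) * ψ (c.v y) ≤
        (∑ π : Equiv.Perm (Fin 3), ψ (c.v g * (Pm (-((tn : ℝ) / 1024)) (c.v x) ∘ π))) / 6 := by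
  have hb := h.2.2.2.2.2.2.2.1
  have key := fun x (hx : x < c.n) g (hg : g < c.n) => Row.row h (hb g hg).1 (hb g hg).2.1 (hb g hg).2.2
    (bn_le ht (hb x hx).1 (hb x hx).2.1 (hb x hx).2.2 (c.T.atm x).1)
    (bn_le ht (hb x hx).1 (hb x hx).2.1 (hb x hx).2.2 (c.T.atm x).2.1)
    (bn_le ht (hb x hx).1 (hb x hx).2.1 (hb x hx).2.2 (c.T.atm x).2.2)
  choose! V h1 h2 h3 using key
  refine ⟨V, ?_, h2, fun x hx g hg ψ hψ hs => ?_⟩
  · rw [toL_eq, List.append_nil, h.2.1]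
    refine tab_congr fun x hx => ?_
    simp only [Tr.ap, vx, force_eq]
    rw [bld_eq _ h.1, h.2.1]
    exact pk_congr fun g hg => h1 x hx g hg
  · have a1 := h3 x hx g hg ψ hψ hs
    have a2 : ∀ (π : Equiv.Perm (Fin 3)) (A B : Vec 3), NN A → NN B →
        ψ ((1 / 128 : ℝ) • A * (((1 / 393216 : ℝ) • B) ∘ π)) = 1 / (3 * 2 ^ 24) * ψ (A * (B ∘ π)) := by
      intro π A B hA hB
      rw [← hψ.smul (1 / (3 * 2 ^ 24)) (A * (B ∘ π)) (by norm_num) fun i => mul_nonneg (hA i) (hB _)]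
      congr 1
      funext i
      simp only [Pi.mul_apply, Pi.smul_apply, Function.comp_apply, smul_eq_mul]
      ring
    rw [Cf.v, Cf.v, Pm_vc ht]
    simp only [a2 _ _ _ (nn_vc _ _ _) (nn_vc _ _ _), ← mul_sum, div_mul_eq_mul_div _ (9 * 2 ^ 25 : ℝ),
      ← sum_div]
    linarith

end Crest.Agent.R163.DE
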